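import Mathlib

namespace Vale.Agent.P195

universe u w

variable {k : Type w} {R : Type u} [CommRing k] [Ring R] [Algebra k R]

section maps

variable {X X' X'' Y Y' : Type u}
  [AddCommGroup X] [Module R X] [Module k X] [IsScalarTower k R X]
  [AddCommGroup X'] [Module R X'] [Module k X'] [IsScalarTower k R X']
  [AddCommGroup X''] [Module R X''] [Module k X''] [IsScalarTower k R X'']
  [AddCommGroup Y] [Module R Y]
  [AddCommGroup Y'] [Module R Y']

variable (k) in
def postc (Y : Type u) [AddCommGroup Y] [Module R Y] (f : X →ₗ[R] X') :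
    (Y →ₗ[R] X) →ₗ[k] (Y →ₗ[R] X') where
  toFun g := f ∘ₗ g
  map_add' a b := LinearMap.comp_add _ _ _
  map_smul' c g := by
    ext y
    simp [LinearMap.map_smul_of_tower]

@[simp] theorem postc_apply (f : X →ₗ[R] X') (g : Y →ₗ[R] X) : postc k Y f g = f ∘ₗ g := rfl

theorem exists_factor {P M N : Type u} [AddCommGroup P] [Module R P] [AddCommGroup M]
    [Module R M] [AddCommGroup N] [Module R N] (π : P →ₗ[R] M) (hπ : Function.Surjective π)
    (g : P →ₗ[R] N) (h : LinearMap.ker π ≤ LinearMap.ker g) : ∃ f : M →ₗ[R] N, f ∘ₗ π = g := by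
  refine ⟨(Submodule.liftQ _ g h) ∘ₗ (π.quotKerEquivOfSurjective hπ).symm.toLinearMap, ?_⟩
  ext x
  have : (π.quotKerEquivOfSurjective hπ).symm (π x) = Submodule.Quotient.mk x := by
    rw [LinearEquiv.symm_apply_eq]
    rfl
  simp [this]

end maps

variable [IsArtinianRing k]

section fin

variable {X : Type u} [AddCommGroup X] [Module R X] [Module k X] [IsScalarTower k R X]
  [Module.Finite k X]

theorem finSub (N : Submodule R X) : Module.Finite k N :=
  Module.Finite.of_injective (N.subtype.restrictScalars k) Subtype.val_injective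

omit [IsArtinianRing k] in
theorem finQuot (N : Submodule R X) : Module.Finite k (X ⧸ N) :=
  Module.Finite.of_surjective (N.mkQ.restrictScalars k) (Submodule.mkQ_surjective N)

include k in
variable (k) in
omit [IsArtinianRing k] in
theorem finR : Module.Finite R X := Module.Finite.of_restrictScalars_finite k R X

variable (k) in
theorem finHom (Y : Type u) [AddCommGroup Y] [Module R Y] [Module.Finite R Y] :
    Module.Finite k (Y →ₗ[R] X) := by
  obtain ⟨n, φ, hφ⟩ := Module.Finite.exists_fin' R Y
  have : Module.Finite k ((Fin n → R) →ₗ[R] X) := Module.Finite.linearMap R k (Fin n → R) X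
  refine Module.Finite.of_injective (LinearMap.lcomp k X φ) ?_
  intro a b hab
  ext y
  obtain ⟨z, rfl⟩ := hφ y
  exact congrArg (fun t => t z) hab

end fin

variable (k R) in
noncomputable def hh (Y X : Type u) [AddCommGroup Y] [Module R Y]
    [AddCommGroup X] [Module R X] [Module k X] [IsScalarTower k R X] : ℕ :=
  (Module.length k (Y →ₗ[R] X)).toNat

section count

variable {X X' X'' Y Y' : Type u}
  [AddCommGroup X] [Module R X] [Module k X] [IsScalarTower k R X] [Module.Finite k X]
  [AddCommGroup X'] [Module R X'] [Module k X'] [IsScalarTower k R X'] [Module.Finite k X']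
  [AddCommGroup X''] [Module R X''] [Module k X''] [IsScalarTower k R X''] [Module.Finite k X'']
  [AddCommGroup Y] [Module R Y] [Module.Finite R Y]
  [AddCommGroup Y'] [Module R Y'] [Module.Finite R Y']

theorem length_hom_ne_top : Module.length k (Y →ₗ[R] X) ≠ ⊤ := by
  have := finHom k (R := R) (X := X) Y
  exact Module.length_ne_top

theorem coe_hh : ((hh k R Y X : ℕ) : ℕ∞) = Module.length k (Y →ₗ[R] X) :=
  ENat.natCast_toNat length_hom_ne_top

theorem hh_add_of_exact {A B C : Type u} [AddCommGroup A] [Module R A] [Module.Finite R A]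
    [AddCommGroup B] [Module R B] [Module.Finite R B]
    [AddCommGroup C] [Module R C] [Module.Finite R C]
    (f : (A →ₗ[R] X) →ₗ[k] (B →ₗ[R] X')) (g : (B →ₗ[R] X') →ₗ[k] (C →ₗ[R] X''))
    (hf : Function.Injective f) (hg : Function.Surjective g) (H : Function.Exact f g) :
    hh k R B X' = hh k R A X + hh k R C X'' := by
  have := Module.length_eq_add_of_exact f g hf hg H
  rw [← coe_hh, ← coe_hh, ← coe_hh] at this
  exact_mod_cast this

theorem hh_eq_of_bijective {A B : Type u} [AddCommGroup A] [Module R A] [Module.Finite R A]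
    [AddCommGroup B] [Module R B] [Module.Finite R B]
    (f : (A →ₗ[R] X) →ₗ[k] (B →ₗ[R] X')) (hf : Function.Bijective f) :
    hh k R A X = hh k R B X' := by
  unfold hh
  rw [(LinearEquiv.ofBijective f hf).length_eq]

theorem hh_left_exact {K P M : Type u} [AddCommGroup K] [Module R K] [Module.Finite R K]
    [AddCommGroup P] [Module R P] [Module.Finite R P]
    [AddCommGroup M] [Module R M] [Module.Finite R M]
    (ι : K →ₗ[R] P) (π : P →ₗ[R] M) (hπ : Function.Surjective π) (H : Function.Exact ι π)
    (hext : ∀ f : K →ₗ[R] X, ∃ g : P →ₗ[R] X, g ∘ₗ ι = f) :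
    hh k R P X = hh k R M X + hh k R K X := by
  refine hh_add_of_exact (LinearMap.lcomp k X π) (LinearMap.lcomp k X ι) ?_ ?_ ?_
  · intro a b hab
    ext y
    obtain ⟨z, rfl⟩ := hπ y
    exact congrArg (fun t => t z) hab
  · intro f
    obtain ⟨g, hg⟩ := hext f
    exact ⟨g, hg⟩
  · intro g
    constructor
    · intro hg
      have hle : LinearMap.ker π ≤ LinearMap.ker g := by
        intro x hx
        obtain ⟨y, rfl⟩ := (H x).mp hx
        exact congrArg (fun t => t y) hg
      obtain ⟨f, hf⟩ := exists_factor π hπ g hle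
      exact ⟨f, hf⟩
    · rintro ⟨f, rfl⟩
      ext y
      simp [H.apply_apply_eq_zero]

theorem hh_cover {P M : Type u}
    [AddCommGroup P] [Module R P] [Module.Finite R P]
    [AddCommGroup M] [Module R M] [Module.Finite R M]
    (π : P →ₗ[R] M) (hπ : Function.Surjective π)
    (hmin : LinearMap.ker π ≤ Ring.jacobson R • (⊤ : Submodule R P))
    (hX : ∀ r ∈ Ring.jacobson R, ∀ x : X, r • x = 0) :
    hh k R M X = hh k R P X := by
  refine hh_eq_of_bijective (LinearMap.lcomp k X π) ⟨?_, ?_⟩
  · intro a b hab
    ext y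
    obtain ⟨z, rfl⟩ := hπ y
    exact congrArg (fun t => t z) hab
  · intro g
    have hle : LinearMap.ker π ≤ LinearMap.ker g := by
      refine hmin.trans ?_
      rw [Submodule.smul_le]
      intro r hr n _
      rw [LinearMap.mem_ker, map_smul, hX r hr]
    obtain ⟨f, hf⟩ := exists_factor π hπ g hle
    exact ⟨f, hf⟩

theorem hh_sub (A : Submodule R X) (h : ∀ (f : Y →ₗ[R] X) (y : Y), f y ∈ A) :
    haveI := finSub (k := k) A
    hh k R Y A = hh k R Y X := by
  have := finSub (k := k) A
  refine hh_eq_of_bijective (postc k Y A.subtype) ⟨?_, ?_⟩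
  · intro a b hab
    ext y
    exact congrArg (fun t => t y) hab
  · intro f
    exact ⟨f.codRestrict A (h f), by ext y; simp⟩

theorem hh_sub_lt [Module.Finite R X] (A : Submodule R X) (hA : A ≠ ⊤) :
    hh k R X A < hh k R X X := by
  have := finSub (k := k) A
  have hfin := finHom k (R := R) (X := X) X
  have hinj : Function.Injective (postc k X A.subtype) := by
    intro a b hab
    ext y
    exact congrArg (fun t => t y) hab
  have hne : LinearMap.range (postc k X A.subtype) ≠ ⊤ := by
    intro htop
    apply hA
    have : (LinearMap.id : X →ₗ[R] X) ∈ LinearMap.range (postc k X A.subtype) := by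
      rw [htop]; trivial
    obtain ⟨g, hg⟩ := this
    rw [eq_top_iff]
    intro x _
    have := congrArg (fun t => t x) hg
    simp only [postc_apply, LinearMap.comp_apply, Submodule.subtype_apply,
      LinearMap.id_apply] at this
    rw [← this]
    exact (g x).2
  have h1 := Submodule.length_lt hne
  rw [← (LinearEquiv.ofInjective _ hinj).length_eq, ← coe_hh, ← coe_hh] at h1
  exact_mod_cast h1

theorem hh_proj_exact [Module.Projective R Y] (f : X' →ₗ[R] X) (g : X →ₗ[R] X'')
    (hf : Function.Injective f) (hg : Function.Surjective g) (H : Function.Exact f g) :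
    hh k R Y X = hh k R Y X' + hh k R Y X'' := by
  refine hh_add_of_exact (postc k Y f) (postc k Y g) ?_ ?_ ?_
  · intro a b hab
    ext y
    exact hf (congrArg (fun t => t y) hab)
  · intro c
    obtain ⟨b, hb⟩ := Module.projective_lifting_property g c hg
    exact ⟨b, hb⟩
  · intro b
    constructor
    · intro hb
      have hmem : ∀ y, b y ∈ LinearMap.range f := by
        intro y
        exact (H (b y)).mp (congrArg (fun t => t y) hb)
      refine ⟨(LinearEquiv.ofInjective f hf).symm.toLinearMap ∘ₗ
        b.codRestrict (LinearMap.range f) hmem, ?_⟩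
      ext y
      have := (LinearEquiv.ofInjective f hf).apply_symm_apply ⟨b y, hmem y⟩
      exact congrArg Subtype.val this
    · rintro ⟨a, rfl⟩
      ext y
      simp [H.apply_apply_eq_zero]

theorem hh_congr (e : X ≃ₗ[R] X') : hh k R Y X = hh k R Y X' := by
  refine hh_eq_of_bijective (postc k Y e.toLinearMap) ⟨?_, ?_⟩
  · intro a b hab
    ext y
    exact e.injective (congrArg (fun t => t y) hab)
  · intro c
    exact ⟨e.symm.toLinearMap ∘ₗ c, by ext y; simp⟩

theorem hh_eq_zero_iff : hh k R Y X = 0 ↔ Subsingleton (Y →ₗ[R] X) := by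
  rw [← Module.length_eq_zero_iff (R := k), ← coe_hh]
  exact_mod_cast Iff.rfl

end count

end Vale.Agent.P195
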