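import Mathlib

namespace Vale.Agent.P195

universe u

open CategoryTheory Abelian

variable {R : Type u} [Ring R]

theorem shift_left {S : ShortComplex (ModuleCat.{u} R)} (hS : S.ShortExact) [Projective S.X₂]
    (Y : ModuleCat.{u} R) (n : ℕ) (h : Subsingleton (Ext S.X₃ Y (n + 2))) :
    Subsingleton (Ext S.X₁ Y (n + 1)) := by
  have key : ∀ x : Ext S.X₁ Y (n + 1), x = 0 := by
    intro x
    obtain ⟨x₂, hx₂⟩ := Ext.contravariant_sequence_exact₁ hS Y x (n₁ := n + 2) (by omega)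
      (Subsingleton.elim _ _)
    rw [← hx₂, Ext.eq_zero_of_projective x₂, Ext.comp_zero]
  exact ⟨fun a b => by rw [key a, key b]⟩

theorem shift_right (X : ModuleCat.{u} R) {S : ShortComplex (ModuleCat.{u} R)}
    (hS : S.ShortExact) (n : ℕ) (h3 : Subsingleton (Ext X S.X₃ n))
    (h2 : Subsingleton (Ext X S.X₂ (n + 1))) : Subsingleton (Ext X S.X₁ (n + 1)) := by
  have key : ∀ x : Ext X S.X₁ (n + 1), x = 0 := by
    intro x
    obtain ⟨x₃, hx₃⟩ := Ext.covariant_sequence_exact₁ X hS x (Subsingleton.elim _ _)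
      (n₀ := n) rfl
    rw [← hx₃, Subsingleton.elim x₃ 0, Ext.zero_comp]
  exact ⟨fun a b => by rw [key a, key b]⟩

theorem extend_of_ext {S : ShortComplex (ModuleCat.{u} R)} (hS : S.ShortExact)
    (Y : ModuleCat.{u} R) (h : Subsingleton (Ext S.X₃ Y 1)) (f : S.X₁ ⟶ Y) :
    ∃ g : S.X₂ ⟶ Y, S.f ≫ g = f := by
  obtain ⟨x₂, hx₂⟩ := Ext.contravariant_sequence_exact₁ hS Y (Ext.mk₀ f) (n₁ := 1) (by omega)
    (Subsingleton.elim _ _)
  obtain ⟨g, rfl⟩ := (Ext.mk₀_bijective S.X₂ Y).2 x₂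
  refine ⟨g, ?_⟩
  rw [Ext.mk₀_comp_mk₀] at hx₂
  exact (Ext.mk₀_bijective S.X₁ Y).1 hx₂

theorem ext_retract (X : ModuleCat.{u} R) {Q F : ModuleCat.{u} R} (i : Q ⟶ F) (r : F ⟶ Q)
    (h : i ≫ r = 𝟙 Q) (m : ℕ) (hF : Subsingleton (Ext X F m)) : Subsingleton (Ext X Q m) := by
  have key : ∀ x : Ext X Q m, x = 0 := by
    intro x
    have h1 : x = (x.comp (Ext.mk₀ i) (add_zero m)).comp (Ext.mk₀ r) (add_zero m) := by
      rw [Ext.comp_assoc_of_third_deg_zero, Ext.mk₀_comp_mk₀, h, Ext.comp_mk₀_id]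
    rw [h1, Subsingleton.elim (x.comp (Ext.mk₀ i) (add_zero m)) 0, Ext.zero_comp]
  exact ⟨fun a b => by rw [key a, key b]⟩

theorem ext_free (X : ModuleCat.{u} R) (n m : ℕ)
    (h : Subsingleton (Ext X (ModuleCat.of R R) m)) :
    Subsingleton (Ext X (ModuleCat.of R (Fin n → R)) m) := by
  have hid : 𝟙 (ModuleCat.of R (Fin n → R)) =
      ∑ j : Fin n, (ModuleCat.ofHom (LinearMap.proj (R := R) (φ := fun _ : Fin n => R) j) ≫
        ModuleCat.ofHom (LinearMap.single R (fun _ : Fin n => R) j)) := by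
    ext x
    simp [ModuleCat.hom_sum]
  have key : ∀ x : Ext X (ModuleCat.of R (Fin n → R)) m, x = 0 := by
    intro x
    rw [← Ext.comp_mk₀_id x, hid, Ext.mk₀_sum, Ext.comp_sum]
    apply Finset.sum_eq_zero
    intro j _
    rw [← Ext.mk₀_comp_mk₀, ← Ext.comp_assoc_of_third_deg_zero,
      Subsingleton.elim (x.comp (Ext.mk₀ (ModuleCat.ofHom
        (LinearMap.proj (R := R) (φ := fun _ : Fin n => R) j))) (add_zero m)) 0, Ext.zero_comp]
  exact ⟨fun a b => by rw [key a, key b]⟩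

theorem ext_proj (X : ModuleCat.{u} R) (Q : Type u) [AddCommGroup Q] [Module R Q]
    [Module.Finite R Q] [Module.Projective R Q] (m : ℕ)
    (h : Subsingleton (Ext X (ModuleCat.of R R) m)) :
    Subsingleton (Ext X (ModuleCat.of R Q) m) := by
  obtain ⟨n, φ, hφ⟩ := Module.Finite.exists_fin' R Q
  obtain ⟨s, hs⟩ := Module.projective_lifting_property φ LinearMap.id hφ
  refine ext_retract X (ModuleCat.ofHom s) (ModuleCat.ofHom φ) ?_ m (ext_free X n m h)
  rw [← ModuleCat.ofHom_comp, hs]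
  rfl

structure CatRes (R : Type u) [Ring R] where
  M : ℕ → ModuleCat.{u} R
  S : ℕ → ShortComplex (ModuleCat.{u} R)
  hS : ∀ p, (S p).ShortExact
  proj : ∀ p, Projective (S p).X₂
  e3 : ∀ p, (S p).X₃ = M p
  e1 : ∀ p, (S p).X₁ = M (p + 1)

theorem CatRes.right (r : CatRes R)
    (h1 : ∀ n, Subsingleton (Ext (r.M 0) (r.M 0) (n + 1)))
    (h2 : ∀ p n, Subsingleton (Ext (r.M 0) (r.S p).X₂ (n + 1))) :
    ∀ i n, Subsingleton (Ext (r.M 0) (r.M i) (i + n + 1)) := by
  intro i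
  induction i with
  | zero => intro n; simpa using h1 n
  | succ i ih =>
    intro n
    have h3 := shift_right (r.M 0) (r.hS i) (i + n + 1) (by rw [r.e3]; exact ih n) (h2 i _)
    rw [r.e1] at h3
    have : i + 1 + n + 1 = i + n + 1 + 1 := by omega
    rw [this]
    exact h3

theorem CatRes.left (r : CatRes R) (Y : ModuleCat.{u} R) :
    ∀ p n, Subsingleton (Ext (r.M 0) Y (p + n + 1)) → Subsingleton (Ext (r.M p) Y (n + 1)) := by
  intro p
  induction p with
  | zero => intro n h; simpa using h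
  | succ p ih =>
    intro n h
    have := r.proj p
    have h3 := shift_left (r.hS p) Y n (by
      rw [r.e3]
      apply ih (n + 1)
      have : p + (n + 1) + 1 = p + 1 + n + 1 := by omega
      rw [this]
      exact h)
    rw [r.e1] at h3
    exact h3

theorem CatRes.ext_one (r : CatRes R)
    (h1 : ∀ n, Subsingleton (Ext (r.M 0) (r.M 0) (n + 1)))
    (h2 : ∀ p n, Subsingleton (Ext (r.M 0) (r.S p).X₂ (n + 1))) (p i : ℕ) (hip : i ≤ p) :
    Subsingleton (Ext (r.M p) (r.M i) 1) := by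
  apply r.left (r.M i) p 0
  obtain ⟨d, rfl⟩ := Nat.exists_eq_add_of_le hip
  have := r.right h1 h2 i d
  simpa using this

end Vale.Agent.P195
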