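import Mathlib
import Vale.Agent.P195.Cover
import Vale.Agent.P195.Count

namespace Vale.Agent.P195

universe u w

variable {k : Type w} {R : Type u} [CommRing k] [Ring R] [Algebra k R]

variable (k R) in
structure FM where
  X : Type u
  [a : AddCommGroup X]
  [b : Module R X]
  [c : Module k X]
  [d : IsScalarTower k R X]
  [e : Module.Finite k X]

attribute [instance] FM.a FM.b FM.c FM.d FM.e

instance (A : FM k R) : Module.Finite R A.X := finR k

variable [IsArtinianRing k] [Module.Finite k R]

theorem simple_list [IsSemiprimaryRing R] : ∃ (m : ℕ) (L : Fin m → FM k R),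
    ∀ (S : Type u) [AddCommGroup S] [Module R S] [IsSimpleModule R S],
      ∃ a, Nonempty ((L a).X ≃ₗ[R] S) := by
  have ss : IsSemisimpleModule R (R ⧸ Ring.jacobson R) := by
    apply semisimple_of_jac_smul
    intro r hr x
    obtain ⟨y, rfl⟩ := Submodule.Quotient.mk_surjective _ x
    rw [← Submodule.Quotient.mk_smul, Submodule.Quotient.mk_eq_zero]
    exact Ideal.mul_mem_right _ _ hr
  obtain ⟨m, L, e, hL⟩ := IsSemisimpleModule.exists_linearEquiv_fin_dfinsupp R
    (R ⧸ Ring.jacobson R)
  have hfq : Module.Finite k (R ⧸ Ring.jacobson R) := finQuot (k := k) (Ring.jacobson R)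
  refine ⟨m, fun a => @FM.mk k R _ _ _ (L a) _ _ _ _ (finSub (k := k) (L a)), ?_⟩
  intro S _ _ _
  have hnt : Nontrivial S := IsSimpleModule.nontrivial R S
  obtain ⟨x, hx⟩ := exists_ne (0 : S)
  have hsurj := IsSimpleModule.toSpanSingleton_surjective R hx
  have hle : Ring.jacobson R ≤ LinearMap.ker (LinearMap.toSpanSingleton R S x) := by
    intro r hr
    have := IsSemisimpleModule.jacobson_le_annihilator R S hr
    rw [Module.mem_annihilator] at this
    rw [LinearMap.mem_ker, LinearMap.toSpanSingleton_apply]
    exact this x
  let ψ : (R ⧸ Ring.jacobson R) →ₗ[R] S :=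
    Submodule.liftQ (Ring.jacobson R) (LinearMap.toSpanSingleton R S x) hle
  have hψ : ψ ∘ₗ e.symm.toLinearMap ≠ 0 := by
    intro h0
    apply hx
    have := congrArg (fun t => t (e (Submodule.Quotient.mk 1))) h0
    simp only [LinearMap.comp_apply, LinearEquiv.coe_coe, LinearEquiv.symm_apply_apply,
      LinearMap.zero_apply, ψ, Submodule.liftQ_apply, LinearMap.toSpanSingleton_apply,
      one_smul] at this
    exact this
  by_contra hcon
  push Not at hcon
  apply hψ
  apply DFinsupp.lhom_ext'
  intro a
  by_contra hne
  have := hL a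
  exact (hcon a).elim (LinearEquiv.ofBijective _ (LinearMap.bijective_of_ne_zero hne))

noncomputable def theta (T : ℕ → FM k R) (X : Type u) [AddCommGroup X] [Module R X] [Module k X]
    [IsScalarTower k R X] : ℕ → ℚ := fun p => (hh k R (T p).X X : ℚ)

omit [Module.Finite k R] in
theorem theta_mem (T : ℕ → FM k R) (hT : ∀ p, Module.Projective R (T p).X)
    {m : ℕ} (L : Fin m → FM k R)
    (hL : ∀ (S : Type u) [AddCommGroup S] [Module R S] [IsSimpleModule R S],
      ∃ a, Nonempty ((L a).X ≃ₗ[R] S)) :
    ∀ (n : ℕ) (X : Type u) [AddCommGroup X] [Module R X] [Module k X] [IsScalarTower k R X]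
      [Module.Finite k X], (Module.length k X).toNat ≤ n →
      theta T X ∈ Submodule.span ℚ (Set.range fun a => theta T (L a).X) := by
  intro n
  induction n with
  | zero =>
    intro X _ _ _ _ _ hX
    have h0 : Module.length k X = 0 := by
      have := ENat.natCast_toNat (Module.length_ne_top (R := k) (M := X))
      rw [← this]
      simp only [Nat.le_zero] at hX
      rw [hX]
      rfl
    have hs : Subsingleton X := Module.length_eq_zero_iff.mp h0
    have : theta T X = 0 := by
      funext p
      have : hh k R (T p).X X = 0 := hh_eq_zero_iff.mpr inferInstance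
      simp [theta, this]
    rw [this]
    exact Submodule.zero_mem _
  | succ n ih =>
    intro X _ _ _ _ _ hX
    have hfR : Module.Finite R X := finR k
    rcases subsingleton_or_nontrivial X with hs | hn
    · have : theta T X = 0 := by
        funext p
        have : hh k R (T p).X X = 0 := hh_eq_zero_iff.mpr inferInstance
        simp [theta, this]
      rw [this]
      exact Submodule.zero_mem _
    · obtain ⟨N, hN, -⟩ := (eq_top_or_exists_le_coatom (⊥ : Submodule R X)).resolve_left
        bot_ne_top
      have hsimple : IsSimpleModule R (X ⧸ N) := isSimpleModule_iff_isCoatom.mpr hN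
      have hfN := finSub (k := k) N
      have hfQ := finQuot (k := k) N
      obtain ⟨a, ⟨ea⟩⟩ := hL (X ⧸ N)
      have hadd : theta T X = theta T N + theta T (L a).X := by
        funext p
        have := hT p
        have h1 := hh_proj_exact (k := k) (Y := (T p).X) N.subtype N.mkQ
          Subtype.val_injective (Submodule.mkQ_surjective N) (LinearMap.exact_subtype_mkQ N)
        have h2 := hh_congr (k := k) (Y := (T p).X) ea
        simp only [theta, Pi.add_apply]
        rw [h1, h2]
        push_cast
        ring
      have hlen : (Module.length k N).toNat ≤ n := by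
        have h1 := Module.length_eq_add_of_exact (N.subtype.restrictScalars k)
          (N.mkQ.restrictScalars k) Subtype.val_injective (Submodule.mkQ_surjective N)
          (LinearMap.exact_subtype_mkQ N)
        have hpos : 0 < Module.length k (X ⧸ N) := by
          have := IsSimpleModule.nontrivial R (X ⧸ N)
          exact Module.length_pos
        rw [← ENat.natCast_toNat (Module.length_ne_top (R := k) (M := X)),
          ← ENat.natCast_toNat (Module.length_ne_top (R := k) (M := N)),
          ← ENat.natCast_toNat (Module.length_ne_top (R := k) (M := X ⧸ N))] at h1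
        rw [← ENat.natCast_toNat (Module.length_ne_top (R := k) (M := X ⧸ N))] at hpos
        have h1' : (Module.length k X).toNat =
          (Module.length k N).toNat + (Module.length k (X ⧸ N)).toNat := by exact_mod_cast h1
        have hpos' : 0 < (Module.length k (X ⧸ N)).toNat := by exact_mod_cast hpos
        omega
      rw [hadd]
      exact Submodule.add_mem _ (ih N hlen) (Submodule.subset_span ⟨a, rfl⟩)

theorem stab {V : Type} [AddCommGroup V] [Module ℚ V] (U : Submodule ℚ V) (hU : U.FG)
    (v : ℕ → V) (hv : ∀ i, v i ∈ U) :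
    ∃ N, ∀ q, N ≤ q → ∀ W : V →ₗ[ℚ] ℚ, (∀ i, i < q → W (v i) = 0) → W (v q) = 0 := by
  have hfin : Module.Finite ℚ U := Module.Finite.of_fg hU
  have hnoeth : IsNoetherian ℚ U := inferInstance
  let v' : ℕ → U := fun i => ⟨v i, hv i⟩
  let f : ℕ →o Submodule ℚ U :=
    ⟨fun q => Submodule.span ℚ (v' '' {i | i < q}), by
      intro a b hab
      apply Submodule.span_mono
      apply Set.image_mono
      intro i hi
      exact lt_of_lt_of_le hi hab⟩
  obtain ⟨N, hN⟩ := monotone_stabilizes_iff_noetherian.mpr hnoeth f
  refine ⟨N, fun q hq W hW => ?_⟩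
  have h1 : v' q ∈ f (q + 1) := Submodule.subset_span ⟨q, Nat.lt_succ_self q, rfl⟩
  have h2 : f (q + 1) = f q := by rw [← hN q hq, ← hN (q + 1) (by omega)]
  rw [h2] at h1
  have h3 : f q ≤ LinearMap.ker (W ∘ₗ U.subtype) := by
    apply Submodule.span_le.mpr
    rintro _ ⟨i, hi, rfl⟩
    exact hW i hi
  exact h3 h1

end Vale.Agent.P195
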