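import Mathlib
import Vale.Agent.P195.Cover
import Vale.Agent.P195.Count
import Vale.Agent.P195.ExtLemmas
import Vale.Agent.P195.Simple

namespace Vale.Agent.P195

universe u w

open CategoryTheory Abelian

variable {k : Type w} {R : Type u} [CommRing k] [Ring R] [Algebra k R]

variable (k R) in
structure Res where
  M : ℕ → FM k R
  P : ℕ → FM k R
  π : ∀ p, (P p).X →ₗ[R] (M p).X
  ι : ∀ p, (M (p + 1)).X →ₗ[R] (P p).X
  proj : ∀ p, Module.Projective R (P p).X
  surj : ∀ p, Function.Surjective (π p)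
  inj : ∀ p, Function.Injective (ι p)
  exact : ∀ p, Function.Exact (ι p) (π p)
  min : ∀ p x, ι p x ∈ Ring.jacobson R • (⊤ : Submodule R (P p).X)

def Res.toCat (r : Res k R) : CatRes R where
  M p := ModuleCat.of R (r.M p).X
  S p := ModuleCat.shortComplexOfCompEqZero (r.ι p) (r.π p) (r.exact p).linearMap_comp_eq_zero
  hS p := ModuleCat.shortComplex_shortExact _ (r.exact p) (r.inj p) (r.surj p)
  proj p := by
    have := r.proj p
    exact (IsProjective.iff_projective (R := R) (r.P p).X).mp this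
  e3 _ := rfl
  e1 _ := rfl

theorem Res.extend (r : Res k R)
    (h1 : ∀ n, Subsingleton (Ext (ModuleCat.of R (r.M 0).X) (ModuleCat.of R (r.M 0).X) (n + 1)))
    (h2 : ∀ n, Subsingleton (Ext (ModuleCat.of R (r.M 0).X) (ModuleCat.of R R) (n + 1)))
    (p i : ℕ) (hip : i ≤ p) (f : (r.M (p + 1)).X →ₗ[R] (r.M i).X) :
    ∃ g : (r.P p).X →ₗ[R] (r.M i).X, g ∘ₗ r.ι p = f := by
  have hP : ∀ p n, Subsingleton (Ext (r.toCat.M 0) (r.toCat.S p).X₂ (n + 1)) := by
    intro p n
    have := r.proj p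
    exact ext_proj _ (r.P p).X (n + 1) (h2 n)
  have h := CatRes.ext_one r.toCat h1 hP p i hip
  obtain ⟨g, hg⟩ := extend_of_ext (r.toCat.hS p) (ModuleCat.of R (r.M i).X) h (ModuleCat.ofHom f)
  refine ⟨g.hom, ?_⟩
  have := congrArg ModuleCat.Hom.hom hg
  exact this

theorem Res.extend_proj (r : Res k R)
    (h2 : ∀ n, Subsingleton (Ext (ModuleCat.of R (r.M 0).X) (ModuleCat.of R R) (n + 1)))
    (p : ℕ) (Q : Type u) [AddCommGroup Q] [Module R Q] [Module.Finite R Q]
    [Module.Projective R Q] (f : (r.M (p + 1)).X →ₗ[R] Q) :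
    ∃ g : (r.P p).X →ₗ[R] Q, g ∘ₗ r.ι p = f := by
  have h := CatRes.left r.toCat (ModuleCat.of R Q) p 0 (ext_proj _ Q _ (h2 _))
  obtain ⟨g, hg⟩ := extend_of_ext (r.toCat.hS p) (ModuleCat.of R Q) h (ModuleCat.ofHom f)
  refine ⟨g.hom, ?_⟩
  have := congrArg ModuleCat.Hom.hom hg
  exact this

def soc (X : Type u) [AddCommGroup X] [Module R X] : Submodule R X where
  carrier := {x | ∀ r ∈ Ring.jacobson R, r • x = 0}
  add_mem' := by
    intro a b ha hb r hr
    rw [smul_add, ha r hr, hb r hr, add_zero]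
  zero_mem' := by
    intro r _
    exact smul_zero r
  smul_mem' := by
    intro c x hx r hr
    rw [← mul_smul]
    exact hx _ (Ideal.mul_mem_right _ _ hr)

theorem soc_smul (X : Type u) [AddCommGroup X] [Module R X] :
    ∀ r ∈ Ring.jacobson R, ∀ x : soc (R := R) X, r • x = 0 := by
  intro r hr x
  apply Subtype.ext
  exact x.2 r hr

theorem Res.ker_le (r : Res k R) (p : ℕ) :
    LinearMap.ker (r.π p) ≤ Ring.jacobson R • (⊤ : Submodule R (r.P p).X) := by
  intro x hx
  obtain ⟨y, rfl⟩ := (r.exact p x).mp hx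
  exact r.min p y

theorem Res.sq0 (h3 : Cube0 R) (r : Res k R) (i : ℕ) :
    ∀ a ∈ Ring.jacobson R, ∀ b ∈ Ring.jacobson R, ∀ x : (r.M (i + 1)).X, a • b • x = 0 := by
  intro a ha b hb x
  apply r.inj i
  rw [map_smul, map_smul, map_zero]
  have h : a • b • r.ι i x ∈ Ring.jacobson R • (Ring.jacobson R •
      (Ring.jacobson R • (⊤ : Submodule R (r.P i).X))) :=
    Submodule.smul_mem_smul ha (Submodule.smul_mem_smul hb (r.min i x))
  rw [smul3_eq_bot h3] at h
  exact h

theorem Res.image_soc (h3 : Cube0 R) (r : Res k R)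
    (h1 : ∀ n, Subsingleton (Ext (ModuleCat.of R (r.M 0).X) (ModuleCat.of R (r.M 0).X) (n + 1)))
    (h2 : ∀ n, Subsingleton (Ext (ModuleCat.of R (r.M 0).X) (ModuleCat.of R R) (n + 1)))
    (p i : ℕ) (hip : i + 1 ≤ p) (f : (r.M (p + 1)).X →ₗ[R] (r.M (i + 1)).X)
    (x : (r.M (p + 1)).X) : f x ∈ soc (R := R) (r.M (i + 1)).X := by
  obtain ⟨g, rfl⟩ := r.extend h1 h2 p (i + 1) hip f
  intro a ha
  rw [LinearMap.comp_apply]
  refine Submodule.smul_induction_on (r.min p x) ?_ ?_
  · intro b hb z _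
    rw [map_smul]
    exact r.sq0 h3 i a ha b hb (g z)
  · intro y z hy hz
    rw [map_add, smul_add, hy, hz, add_zero]

variable [IsArtinianRing k]

theorem Res.num1 (h3 : Cube0 R) (r : Res k R)
    (h1 : ∀ n, Subsingleton (Ext (ModuleCat.of R (r.M 0).X) (ModuleCat.of R (r.M 0).X) (n + 1)))
    (h2 : ∀ n, Subsingleton (Ext (ModuleCat.of R (r.M 0).X) (ModuleCat.of R R) (n + 1)))
    (p i : ℕ) (hip : i + 1 ≤ p) :
    hh k R (r.M (p + 1)).X (r.M (i + 1)).X =
      hh k R (r.P (p + 1)).X (soc (R := R) (r.M (i + 1)).X) := by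
  have := finSub (k := k) (soc (R := R) (r.M (i + 1)).X)
  rw [← hh_sub (k := k) (soc (R := R) (r.M (i + 1)).X) (r.image_soc h3 h1 h2 p i hip)]
  exact hh_cover (r.π (p + 1)) (r.surj (p + 1)) (r.ker_le (p + 1)) (soc_smul _)

theorem Res.num2 (r : Res k R)
    (h1 : ∀ n, Subsingleton (Ext (ModuleCat.of R (r.M 0).X) (ModuleCat.of R (r.M 0).X) (n + 1)))
    (h2 : ∀ n, Subsingleton (Ext (ModuleCat.of R (r.M 0).X) (ModuleCat.of R R) (n + 1)))
    (p i : ℕ) (hip : i ≤ p) :
    hh k R (r.P p).X (r.M i).X = hh k R (r.M p).X (r.M i).X + hh k R (r.M (p + 1)).X (r.M i).X :=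
  hh_left_exact (r.ι p) (r.π p) (r.surj p) (r.exact p) (r.extend h1 h2 p i hip)

theorem Res.descend (h3 : Cube0 R) (r : Res k R)
    (h2 : ∀ n, Subsingleton (Ext (ModuleCat.of R (r.M 0).X) (ModuleCat.of R R) (n + 1)))
    (p : ℕ) (hs : Subsingleton (r.M (p + 2)).X) : Subsingleton (r.M (p + 1)).X := by
  have hinj : Function.Injective (r.π (p + 1)) := by
    rw [← LinearMap.ker_eq_bot, eq_bot_iff]
    intro x hx
    obtain ⟨y, rfl⟩ := (r.exact (p + 1) x).mp hx
    rw [Subsingleton.elim y 0, map_zero]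
    exact Submodule.zero_mem _
  have hproj : Module.Projective R (r.M (p + 1)).X := by
    have := r.proj (p + 1)
    exact Module.Projective.of_equiv (LinearEquiv.ofBijective (r.π (p + 1))
      ⟨hinj, r.surj (p + 1)⟩)
  obtain ⟨g, hg⟩ := r.extend_proj h2 p (r.M (p + 1)).X LinearMap.id
  have htop : (⊥ : Submodule R (r.M (p + 1)).X) ⊔
      Ring.jacobson R • (⊤ : Submodule R (r.M (p + 1)).X) = ⊤ := by
    rw [bot_sup_eq, eq_top_iff]
    intro x _
    have hx : x = g (r.ι p x) := (congrArg (fun t => t x) hg).symm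
    rw [hx]
    have : g (r.ι p x) ∈ Submodule.map g (Ring.jacobson R • (⊤ : Submodule R (r.P p).X)) :=
      Submodule.mem_map_of_mem (r.min p x)
    rw [Submodule.map_smul''] at this
    exact Submodule.smul_mono le_rfl le_top this
  have := eq_top_of_sup_smul h3 _ htop
  exact (Submodule.subsingleton_iff R).mp (subsingleton_of_bot_eq_top this)

theorem Res.projective_of_subsingleton (h3 : Cube0 R) (r : Res k R)
    (h2 : ∀ n, Subsingleton (Ext (ModuleCat.of R (r.M 0).X) (ModuleCat.of R R) (n + 1)))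
    (q : ℕ) (hs : Subsingleton (r.M (q + 1)).X) : Module.Projective R (r.M 0).X := by
  induction q with
  | zero =>
    have hinj : Function.Injective (r.π 0) := by
      rw [← LinearMap.ker_eq_bot, eq_bot_iff]
      intro x hx
      obtain ⟨y, rfl⟩ := (r.exact 0 x).mp hx
      rw [Subsingleton.elim y 0, map_zero]
      exact Submodule.zero_mem _
    have := r.proj 0
    exact Module.Projective.of_equiv (LinearEquiv.ofBijective (r.π 0) ⟨hinj, r.surj 0⟩)
  | succ q ih => exact ih (r.descend h3 h2 q hs)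

end Vale.Agent.P195
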