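import Mathlib
import Vale.Agent.P195.Main

namespace Vale.Agent.P195

universe u w

open CategoryTheory Abelian

variable {k : Type w} {R : Type u} [CommRing k] [Ring R] [Algebra k R] [IsArtinianRing k]
  [Module.Finite k R]

include k in
variable (k) in
theorem artR : IsArtinianRing R := isArtinian_of_tower k inferInstance

noncomputable def Wfun (q : ℕ) : ((ℕ → ℚ) × (ℕ → ℚ)) →ₗ[ℚ] ℚ :=
  ((LinearMap.proj (q + 1) : (ℕ → ℚ) →ₗ[ℚ] ℚ) + (LinearMap.proj (q + 2) : (ℕ → ℚ) →ₗ[ℚ] ℚ)) ∘ₗ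
      LinearMap.fst ℚ (ℕ → ℚ) (ℕ → ℚ) -
    (LinearMap.proj (q + 1) : (ℕ → ℚ) →ₗ[ℚ] ℚ) ∘ₗ LinearMap.snd ℚ (ℕ → ℚ) (ℕ → ℚ)

theorem Wfun_apply (q : ℕ) (a b : ℕ → ℚ) : Wfun q (a, b) = a (q + 1) + a (q + 2) - b (q + 1) := by
  simp [Wfun]

theorem Res.stage1 (h3 : Cube0 R) (r : Res k R)
    (h1 : ∀ n, Subsingleton (Ext (ModuleCat.of R (r.M 0).X) (ModuleCat.of R (r.M 0).X) (n + 1)))
    (h2 : ∀ n, Subsingleton (Ext (ModuleCat.of R (r.M 0).X) (ModuleCat.of R R) (n + 1))) :
    ∃ N, ∀ q, N ≤ q → ∀ a ∈ Ring.jacobson R, ∀ x : (r.M (q + 1)).X, a • x = 0 := by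
  have hart : IsArtinianRing R := artR k
  obtain ⟨m, L, hL⟩ := simple_list (k := k) (R := R)
  set U : Submodule ℚ (ℕ → ℚ) := Submodule.span ℚ (Set.range fun a => theta r.P (L a).X) with hU
  have hUfg : U.FG := Submodule.fg_span (Set.finite_range _)
  have hmem : ∀ (X : Type u) [AddCommGroup X] [Module R X] [Module k X] [IsScalarTower k R X]
      [Module.Finite k X], theta r.P X ∈ U := fun X _ _ _ _ _ =>
    theta_mem r.P r.proj L hL _ X le_rfl
  let z : ℕ → (ℕ → ℚ) × (ℕ → ℚ) := fun i =>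
    (theta r.P (soc (R := R) (r.M (i + 1)).X), theta r.P (r.M (i + 1)).X)
  have hz : ∀ i, z i ∈ U.prod U := by
    intro i
    have := finSub (k := k) (soc (R := R) (r.M (i + 1)).X)
    exact ⟨hmem _, hmem _⟩
  obtain ⟨N, hN⟩ := stab (U.prod U) (hUfg.prod hUfg) z hz
  refine ⟨N, fun q hq => ?_⟩
  have hfs := finSub (k := k) (soc (R := R) (r.M (q + 1)).X)
  have hzero := hN q hq (Wfun q) (by
    intro i hi
    have e1 := r.num2 h1 h2 (q + 1) (i + 1) (by omega)
    have e2 := r.num1 h3 h1 h2 q i (by omega)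
    have e3 := r.num1 h3 h1 h2 (q + 1) i (by omega)
    simp only [z, Wfun_apply, theta]
    rw [e1, e2, e3]
    push_cast
    ring)
  have e1 := r.num2 h1 h2 (q + 1) (q + 1) le_rfl
  have e3 := r.num1 h3 h1 h2 (q + 1) q le_rfl
  have e4 : hh k R (r.M (q + 1)).X (soc (R := R) (r.M (q + 1)).X) =
      hh k R (r.P (q + 1)).X (soc (R := R) (r.M (q + 1)).X) :=
    hh_cover (r.π (q + 1)) (r.surj (q + 1)) (r.ker_le (q + 1)) (soc_smul _)
  simp only [z, Wfun_apply, theta] at hzero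
  rw [e1, e3, ← e4] at hzero
  push_cast at hzero
  have heq : hh k R (r.M (q + 1)).X (soc (R := R) (r.M (q + 1)).X) =
      hh k R (r.M (q + 1)).X (r.M (q + 1)).X := by
    have : ((hh k R (r.M (q + 1)).X (soc (R := R) (r.M (q + 1)).X) : ℕ) : ℚ) =
      (hh k R (r.M (q + 1)).X (r.M (q + 1)).X : ℕ) := by linarith
    exact_mod_cast this
  have htop : soc (R := R) (r.M (q + 1)).X = ⊤ := by
    by_contra hne
    have := hh_sub_lt (k := k) (soc (R := R) (r.M (q + 1)).X) hne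
    omega
  intro a ha x
  have hx : x ∈ soc (R := R) (r.M (q + 1)).X := by rw [htop]; trivial
  exact hx a ha

theorem Res.stage2 (r : Res k R)
    (h1 : ∀ n, Subsingleton (Ext (ModuleCat.of R (r.M 0).X) (ModuleCat.of R (r.M 0).X) (n + 1)))
    (h2 : ∀ n, Subsingleton (Ext (ModuleCat.of R (r.M 0).X) (ModuleCat.of R R) (n + 1)))
    (N : ℕ) (hN : ∀ q, N ≤ q → ∀ a ∈ Ring.jacobson R, ∀ x : (r.M (q + 1)).X, a • x = 0) :
    ∃ q, Subsingleton (r.M (q + 1)).X := by
  have hart : IsArtinianRing R := artR k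
  obtain ⟨m, L, hL⟩ := simple_list (k := k) (R := R)
  set U : Submodule ℚ (ℕ → ℚ) := Submodule.span ℚ (Set.range fun a => theta r.P (L a).X) with hU
  have hUfg : U.FG := Submodule.fg_span (Set.finite_range _)
  let v : ℕ → (ℕ → ℚ) := fun j => theta r.P (r.M (N + j + 1)).X
  have hv : ∀ j, v j ∈ U := fun j => theta_mem r.P r.proj L hL _ _ le_rfl
  obtain ⟨N', hN'⟩ := stab U hUfg v hv
  have hzero := hN' N' le_rfl (LinearMap.proj (N + N' + 1)) (by
    intro i hi
    simp only [v, theta, LinearMap.proj_apply]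
    have e1 : hh k R (r.M (N + N' + 1)).X (r.M (N + i + 1)).X =
        hh k R (r.P (N + N' + 1)).X (r.M (N + i + 1)).X :=
      hh_cover (r.π _) (r.surj _) (r.ker_le _) (hN (N + i) (by omega))
    rw [← e1]
    have : hh k R (r.M (N + N' + 1)).X (r.M (N + i + 1)).X = 0 := by
      rw [hh_eq_zero_iff]
      refine ⟨fun f g => ?_⟩
      have key : ∀ f : (r.M (N + N' + 1)).X →ₗ[R] (r.M (N + i + 1)).X, f = 0 := by
        intro f
        obtain ⟨g, rfl⟩ := r.extend h1 h2 (N + N') (N + i + 1) (by omega) f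
        ext x
        rw [LinearMap.comp_apply, LinearMap.zero_apply]
        refine Submodule.smul_induction_on (r.min (N + N') x) ?_ ?_
        · intro b hb y _
          rw [map_smul]
          exact hN (N + i) (by omega) b hb _
        · intro y y' hy hy'
          rw [map_add, hy, hy', add_zero]
      rw [key f, key g]
    rw [this]
    rfl)
  simp only [v, theta, LinearMap.proj_apply] at hzero
  have h0 : hh k R (r.P (N + N' + 1)).X (r.M (N + N' + 1)).X = 0 := by exact_mod_cast hzero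
  rw [hh_eq_zero_iff] at h0
  refine ⟨N + N', ⟨fun x y => ?_⟩⟩
  obtain ⟨x', rfl⟩ := r.surj _ x
  obtain ⟨y', rfl⟩ := r.surj _ y
  rw [Subsingleton.elim (r.π (N + N' + 1)) 0]
  rfl

theorem Res.main (h3 : Cube0 R) (r : Res k R)
    (h1 : ∀ n, Subsingleton (Ext (ModuleCat.of R (r.M 0).X) (ModuleCat.of R (r.M 0).X) (n + 1)))
    (h2 : ∀ n, Subsingleton (Ext (ModuleCat.of R (r.M 0).X) (ModuleCat.of R R) (n + 1))) :
    Module.Projective R (r.M 0).X := by
  obtain ⟨N, hN⟩ := r.stage1 h3 h1 h2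
  obtain ⟨q, hq⟩ := r.stage2 h1 h2 N hN
  exact r.projective_of_subsingleton h3 h2 q hq

structure Cover (A : FM k R) where
  n : ℕ
  P : Submodule R (Fin n → R)
  π : P →ₗ[R] A.X
  proj : Module.Projective R P
  surj : Function.Surjective π
  min : LinearMap.ker π ≤ Ring.jacobson R • (⊤ : Submodule R P)

def Cover.top {A : FM k R} (c : Cover A) : FM k R :=
  @FM.mk k R _ _ _ c.P _ _ _ _ (finSub (k := k) c.P)

def Cover.syz {A : FM k R} (c : Cover A) : FM k R :=
  @FM.mk k R _ _ _ (LinearMap.ker c.π) _ _ _ _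
    (@finSub k R _ _ _ _ c.P _ _ _ _ (finSub (k := k) c.P) (LinearMap.ker c.π))

theorem nonempty_cover (h3 : Cube0 R) (A : FM k R) : Nonempty (Cover A) := by
  have hart : IsArtinianRing R := artR k
  obtain ⟨n, P, π, h1, h2, h4⟩ := exists_cover h3 A.X
  exact ⟨⟨n, P, π, h1, h2, h4⟩⟩

noncomputable def cov (h3 : Cube0 R) (A : FM k R) : Cover A :=
  Classical.choice (nonempty_cover h3 A)

noncomputable def Mseq (h3 : Cube0 R) (A : FM k R) : ℕ → FM k R
  | 0 => A
  | p + 1 => (cov h3 (Mseq h3 A p)).syz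

noncomputable def mkRes (h3 : Cube0 R) (A : FM k R) : Res k R where
  M := Mseq h3 A
  P p := (cov h3 (Mseq h3 A p)).top
  π p := (cov h3 (Mseq h3 A p)).π
  ι p := (LinearMap.ker (cov h3 (Mseq h3 A p)).π).subtype
  proj p := (cov h3 (Mseq h3 A p)).proj
  surj p := (cov h3 (Mseq h3 A p)).surj
  inj _ := Subtype.val_injective
  exact _ := LinearMap.exact_subtype_ker_map _
  min p x := (cov h3 (Mseq h3 A p)).min x.2

theorem main_FM (h3 : Cube0 R) (A : FM k R)
    (h1 : ∀ n, Subsingleton (Ext (ModuleCat.of R A.X) (ModuleCat.of R A.X) (n + 1)))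
    (h2 : ∀ n, Subsingleton (Ext (ModuleCat.of R A.X) (ModuleCat.of R R) (n + 1))) :
    Module.Projective R A.X :=
  (mkRes h3 A).main h3 h1 h2

theorem main_thm (k : Type w) (R : Type u) [CommRing k] [IsArtinianRing k] [Ring R] [Algebra k R]
    [Module.Finite k R]
    (h3 : ∀ x ∈ Ring.jacobson R, ∀ y ∈ Ring.jacobson R, ∀ z ∈ Ring.jacobson R, x * y * z = 0)
    (M : Type u) [AddCommGroup M] [Module R M] [Module.Finite R M]
    (h1 : ∀ i : ℕ, 1 ≤ i → Subsingleton (Ext (ModuleCat.of R M) (ModuleCat.of R M) i))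
    (h2 : ∀ i : ℕ, 1 ≤ i → Subsingleton (Ext (ModuleCat.of R M) (ModuleCat.of R R) i)) :
    Module.Projective R M := by
  let _ : Module k M := Module.compHom M (algebraMap k R)
  have : IsScalarTower k R M := ⟨fun a b c => by
    change (a • b) • c = (algebraMap k R a) • (b • c)
    rw [Algebra.smul_def, mul_smul]⟩
  have : Module.Finite k M := Module.Finite.trans R M
  exact main_FM h3 (FM.mk (k := k) (R := R) M) (fun n => h1 (n + 1) (by omega))
    (fun n => h2 (n + 1) (by omega))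

end Vale.Agent.P195
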